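import Vale.Agent.Lib.P252.Separable

open scoped ContDiff

/-- Let `I 0, …, I (n-1)` be nonempty open intervals of the line and let `φ i` be `C^∞` on `I i`
with `φ i'' > 0` there. If `u(x) = ∑ φ i (x i)` solves the affine maximal equation (AM) at every
point of `Ω = ∏ I i` and its graph over `Ω` is closed in `ℝⁿ × ℝ`, then every `I i` is the whole
line and every `φ i` is a quadratic polynomial with positive leading coefficient; so `Ω = ℝⁿ` and
the graph is an elliptic paraboloid. -/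
theorem Vale.Agent.Results.P252.A_separable.result {n : ℕ}
    (I : Fin n → Set ℝ) (φ : Fin n → ℝ → ℝ)
    (hIo : ∀ i, IsOpen (I i)) (hIc : ∀ i, (I i).OrdConnected) (hIne : ∀ i, (I i).Nonempty)
    (hsm : ∀ i, ContDiffOn ℝ ∞ (φ i) (I i))
    (hg : ∀ i, ∀ t ∈ I i, 0 < deriv (deriv (φ i)) t)
    (hAM : ∀ x : Fin n → ℝ, (∀ i, x i ∈ I i) →
      Vale.Agent.Lib.P252.AffineMaximalAt (fun z => ∑ k, φ k (z k)) x)
    (hcl : IsClosed {p : (Fin n → ℝ) × ℝ | (∀ k, p.1 k ∈ I k) ∧ p.2 = ∑ k, φ k (p.1 k)}) :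
    ∀ i, I i = Set.univ ∧ ∃ A b c : ℝ, 0 < A ∧ ∀ t, φ i t = A * t ^ 2 / 2 + b * t + c :=
  Vale.Agent.Lib.P252.separable_rigidity hIo hIc hIne hsm hg hAM hcl
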